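import Vale.Agent.P190.Final

universe u

theorem Vale.Agent.Results.P190.A_full.result :
    ∃ (R : Type) (_ : CommRing R) (_ : IsDomain R) (_ : IsLocalRing R) (_ : IsNoetherianRing R),
      IsAdicComplete (IsLocalRing.maximalIdeal R) R ∧ ringKrullDim R = 3 ∧
      ∀ (M : Type u) [AddCommGroup M] [Module R M] [Module.Finite R M] [Nontrivial M]
        (rs : List R), (∀ r ∈ rs, r ∈ IsLocalRing.maximalIdeal R) →
          RingTheory.Sequence.IsRegular M rs → (rs.length : WithBot ℕ∞) < ringKrullDim R :=
  Vale.Agent.P190.main
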